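import Vale.Agent.Lib.P309.Model

namespace Vale.Agent.Lib.P309

open MeasureTheory ProbabilityTheory Metric Set
open scoped ENNReal

variable {d : ℕ}

/-- A linear isometry acting on the unit sphere. -/
noncomputable def isoS (O : Vec d ≃ₗᵢ[ℝ] Vec d) (s : Sph d) : Sph d :=
  ⟨O (s : Vec d), by
    have h : ‖(s : Vec d)‖ = 1 := by simp
    simp [h]⟩

@[simp] lemma coe_isoS (O : Vec d ≃ₗᵢ[ℝ] Vec d) (s : Sph d) : ((isoS O s : Sph d) : Vec d) = O (s : Vec d) :=
  rfl

lemma measurable_isoS (O : Vec d ≃ₗᵢ[ℝ] Vec d) : Measurable (isoS O) := by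
  have h : Measurable (fun s : Sph d => O (s : Vec d)) :=
    O.continuous.measurable.comp measurable_subtype_coe
  exact h.subtype_mk

open scoped Pointwise in
lemma g1_cone_preimage_isoS (O : Vec d ≃ₗᵢ[ℝ] Vec d) (A : Set (Sph d)) :
    Ioo (0 : ℝ) 1 • ((↑) '' (isoS O ⁻¹' A) : Set (Vec d))
      = O ⁻¹' (Ioo (0 : ℝ) 1 • ((↑) '' A : Set (Vec d))) := by
  ext x
  constructor
  · rintro ⟨r, hr, y, ⟨s, hs, rfl⟩, rfl⟩
    refine ⟨r, hr, O (s : Vec d), ⟨isoS O s, hs, rfl⟩, ?_⟩
    simp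
  · rintro ⟨r, hr, y, ⟨s, hs, rfl⟩, hx⟩
    refine ⟨r, hr, O.symm (s : Vec d), ⟨isoS O.symm s, ?_, rfl⟩, ?_⟩
    · have e : isoS O (isoS O.symm s) = s := by
        apply Subtype.ext
        simp
      rw [mem_preimage, e]
      exact hs
    · have hx' : r • (s : Vec d) = O x := hx
      show r • O.symm (s : Vec d) = x
      rw [← map_smul, hx', LinearIsometryEquiv.symm_apply_apply]

lemma g1_toSphere_map_isoS (O : Vec d ≃ₗᵢ[ℝ] Vec d) :
    Measure.map (isoS O) (volume : Measure (Vec d)).toSphere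
      = (volume : Measure (Vec d)).toSphere := by
  ext A hA
  rw [Measure.map_apply (measurable_isoS O) hA, Measure.toSphere_apply' _ hA,
    Measure.toSphere_apply' _ ((measurable_isoS O) hA), g1_cone_preimage_isoS]
  congr 1
  exact (LinearIsometryEquiv.measurePreserving O).measure_preimage_emb
    O.toHomeomorph.measurableEmbedding _

lemma g1_measurePreserving_isoS (O : Vec d ≃ₗᵢ[ℝ] Vec d) :
    MeasurePreserving (isoS O) (uniformSphere d) (uniformSphere d) := by
  refine ⟨measurable_isoS O, ?_⟩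
  unfold uniformSphere
  rw [Measure.map_smul, g1_toSphere_map_isoS]

theorem uniformSphere_univ (hd : 1 ≤ d) : uniformSphere d Set.univ = 1 := by
  have hfin : Module.finrank ℝ (Vec d) = d := finrank_euclideanSpace_fin
  have hm0 : (volume : Measure (Vec d)) (ball (0 : Vec d) 1) ≠ 0 :=
    (measure_ball_pos volume (0 : Vec d) one_pos).ne'
  have hmtop : (volume : Measure (Vec d)) (ball (0 : Vec d) 1) ≠ ⊤ := measure_ball_lt_top.ne
  have hd0 : (d : ℝ≥0∞) ≠ 0 := by
    simp only [ne_eq, Nat.cast_eq_zero]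
    omega
  have hdtop : (d : ℝ≥0∞) ≠ ⊤ := ENNReal.natCast_ne_top d
  unfold uniformSphere
  rw [Measure.smul_apply, smul_eq_mul, Measure.toSphere_apply_univ, hfin]
  exact ENNReal.inv_mul_cancel (mul_ne_zero hd0 hm0) (ENNReal.mul_ne_top hdtop hmtop)

/-- Normalisation map onto the sphere, with the default value `s₀` at the origin. -/
noncomputable def dirS (s₀ : Sph d) (x : Vec d) : Sph d :=
  if h : x = 0 then s₀ else ⟨‖x‖⁻¹ • x, by
    have : ‖x‖ ≠ 0 := by simpa using h
    simp [norm_smul, this]⟩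

lemma coe_dirS_of_ne (s₀ : Sph d) {x : Vec d} (h : x ≠ 0) : ((dirS s₀ x : Sph d) : Vec d) = ‖x‖⁻¹ • x := by
  simp [dirS, h]

lemma g1_coe_dirS_eq_ite (s₀ : Sph d) (x : Vec d) :
    ((dirS s₀ x : Sph d) : Vec d) = if x = 0 then (s₀ : Vec d) else ‖x‖⁻¹ • x := by
  by_cases h : x = 0
  · simp [dirS, h]
  · simp [dirS, h]

lemma measurable_dirS (s₀ : Sph d) : Measurable (dirS s₀) := by
  have h : Measurable (fun x : Vec d => if x = 0 then (s₀ : Vec d) else ‖x‖⁻¹ • x) :=
    Measurable.ite (measurableSet_singleton (0 : Vec d)) measurable_const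
      (measurable_norm.inv.smul measurable_id)
  have h' : Measurable (fun x : Vec d => ((dirS s₀ x : Sph d) : Vec d)) := by
    have e : (fun x : Vec d => ((dirS s₀ x : Sph d) : Vec d))
        = fun x : Vec d => if x = 0 then (s₀ : Vec d) else ‖x‖⁻¹ • x :=
      funext (g1_coe_dirS_eq_ite s₀)
    rw [e]
    exact h
  exact h'.subtype_mk (h := fun x => (dirS s₀ x).2)

lemma g1_one_le_dim_of_sph (s₀ : Sph d) : 1 ≤ d := by
  by_contra h
  have hd0 : d = 0 := by omega
  subst hd0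
  have h1 : (s₀ : Vec 0) = 0 := Subsingleton.elim _ _
  have h2 : ‖(s₀ : Vec 0)‖ = 1 := by simp
  rw [h1, norm_zero] at h2
  exact zero_ne_one h2

end Vale.Agent.Lib.P309
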