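import Vale.Agent.Lib.P309.Model

namespace Vale.Agent.Lib.P309

open MeasureTheory ProbabilityTheory
open scoped ENNReal

/-- A hyperplane through the origin is a null set for the standard Gaussian measure. -/
lemma stdGaussian_hyperplane_null {d : ℕ} (u : Vec d) (hu : u ≠ 0) :
    stdGaussian (Vec d) {x : Vec d | inner ℝ u x = 0} = 0 := by
  have hmap := IsGaussian.map_eq_gaussianReal (μ := stdGaussian (Vec d)) (innerSL ℝ u)
  rw [integral_strongDual_stdGaussian, variance_dual_stdGaussian] at hmap
  have hv : (‖innerSL ℝ u‖ ^ 2).toNNReal ≠ 0 := by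
    rw [innerSL_apply_norm]
    intro h0
    rw [Real.toNNReal_eq_zero] at h0
    have hpos : 0 < ‖u‖ ^ 2 := by positivity
    linarith
  have hset : {x : Vec d | inner ℝ u x = 0} = (innerSL ℝ u) ⁻¹' {0} := by
    ext x
    simp
  rw [hset, ← Measure.map_apply (innerSL ℝ u).continuous.measurable (measurableSet_singleton 0),
    hmap]
  have := nullSingletonClass_gaussianReal (μ := 0) hv
  exact measure_singleton 0

/-- A proper subspace is a null set for the standard Gaussian measure. -/
lemma stdGaussian_subspace_null {d : ℕ} (K : Submodule ℝ (Vec d)) (hK : K ≠ ⊤) :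
    stdGaussian (Vec d) (K : Set (Vec d)) = 0 := by
  have hbot : Kᗮ ≠ ⊥ := fun h => hK (Submodule.orthogonal_eq_bot_iff.1 h)
  obtain ⟨u, huK, hu0⟩ := Submodule.exists_mem_ne_zero_of_ne_bot hbot
  refine measure_mono_null ?_ (stdGaussian_hyperplane_null u hu0)
  intro x hx
  have : inner ℝ x u = 0 := (Submodule.mem_orthogonal K u).1 huK x hx
  show inner ℝ u x = 0
  rw [real_inner_comm]
  exact this

/-- The span of fewer than `d` vectors is a null set for the standard Gaussian measure. -/
lemma stdGaussian_span_null {d n : ℕ} (h : n < d) (f : Fin n → Vec d) :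
    stdGaussian (Vec d) ((Submodule.span ℝ (Set.range f) : Submodule ℝ (Vec d)) : Set (Vec d))
      = 0 := by
  refine stdGaussian_subspace_null _ ?_
  intro htop
  have h1 : Module.finrank ℝ (Submodule.span ℝ (Set.range f)) ≤ n := by
    have := finrank_range_le_card (R := ℝ) f
    simpa [Set.finrank] using this
  rw [htop, finrank_top, finrank_euclideanSpace, Fintype.card_fin] at h1
  omega

end Vale.Agent.Lib.P309
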