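import Vale.Agent.Lib.P309.Model

namespace Vale.Agent.Lib.P309

open MeasureTheory ProbabilityTheory Metric Set
open scoped ENNReal

/-- The Gaussian product measure is invariant under a linear isometry applied to every vector. -/
lemma nrm_pi_gaussian_map {n d : ℕ} (O : Vec d ≃ₗᵢ[ℝ] Vec d) :
    (Measure.pi (fun _ : Fin n => stdGaussian (Vec d))).map
        (fun X' : Fin n → Vec d => fun j => O (X' j))
      = Measure.pi (fun _ : Fin n => stdGaussian (Vec d)) := by
  have hO : (stdGaussian (Vec d)).map O = stdGaussian (Vec d) := stdGaussian_map O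
  have hs : ∀ _ : Fin n, SigmaFinite ((stdGaussian (Vec d)).map O) := by
    intro _
    rw [hO]
    infer_instance
  rw [Measure.pi_map_pi (μ := fun _ : Fin n => stdGaussian (Vec d))
    (f := fun _ : Fin n => (O : Vec d → Vec d)) (fun _ => O.continuous.measurable.aemeasurable)]
  simp only [hO]

end Vale.Agent.Lib.P309
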