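import Vale.Agent.Lib.P309.Geo.Basic

/-!
# Auxiliary lemmas for the reflection density bound

One-dimensional substitution `w ↦ (1 / w - w) / 2`, coordinates `ℝ × Vec m` on `Vec (m + 1)`,
and the slope decomposition of integrals of functions that are homogeneous of degree zero.
-/

namespace Vale.Agent.Lib.P309

open MeasureTheory Metric Set
open scoped ENNReal

/-! ### The one-dimensional substitution -/

/-! ### Coordinates -/

/-! ### Linear substitutions -/

/-! ### The slope decomposition -/

/-! ### Even functions and the substitution inequality -/

/-! ### Negation invariance -/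

/-! ### The reflection in coordinates -/

lemma dirS_smul_pos {d : ℕ} (s₀ : Sph d) {c : ℝ} (hc : 0 < c) (y : Vec d) :
    dirS s₀ (c • y) = dirS s₀ y := by
  by_cases hy : y = 0
  · simp [hy]
  · have hcy : c • y ≠ 0 := smul_ne_zero hc.ne' hy
    have hny : ‖y‖ ≠ 0 := by simpa using hy
    apply Subtype.ext
    rw [coe_dirS_of_ne s₀ hcy, coe_dirS_of_ne s₀ hy, norm_smul, Real.norm_eq_abs,
      abs_of_pos hc, smul_smul]
    congr 1
    field_simp

/-! ### The two integrands in coordinates -/

end Vale.Agent.Lib.P309
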